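import Mathlib

namespace Vale.Agent.P345

theorem coprime_pow_eq {p q i j l l' : ℕ} (hp : 2 ≤ p) (h : Nat.Coprime p q)
    (e : p ^ i * q ^ j = p ^ l * q ^ l') : i = l ∧ q ^ j = q ^ l' := by
  have h1 : p ^ i ∣ p ^ l := by
    have : p ^ i ∣ p ^ l * q ^ l' := ⟨q ^ j, e.symm⟩
    exact (Nat.Coprime.pow i l' h).dvd_of_dvd_mul_right this
  have h2 : p ^ l ∣ p ^ i := by
    have : p ^ l ∣ p ^ i * q ^ j := ⟨q ^ l', e⟩
    exact (Nat.Coprime.pow l j h).dvd_of_dvd_mul_right this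
  have h3 : i ≤ l := (Nat.pow_dvd_pow_iff_le_right (by omega)).1 h1
  have h4 : l ≤ i := (Nat.pow_dvd_pow_iff_le_right (by omega)).1 h2
  have h5 : i = l := le_antisymm h3 h4
  subst h5
  refine ⟨rfl, ?_⟩
  have hpos : 0 < p ^ i := Nat.pow_pos (by omega)
  exact Nat.eq_of_mul_eq_mul_left hpos e

theorem binom_two_terms (y i : ℕ) : ∃ k, (y + 1) ^ i = 1 + y * (i + k * y) := by
  induction i with
  | zero => exact ⟨0, by simp⟩
  | succ i ih =>
    obtain ⟨k, hk⟩ := ih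
    refine ⟨k + i + k * y, ?_⟩
    rw [pow_succ, hk]
    ring

/-- Arithmetic core of the first layer. -/
theorem core1 {n y X0 k s : ℕ} (h1 : ∃ i, y = 2 ^ i) (h2 : ∃ j, X0 = (2 * y + 1) ^ j)
    (h3 : ∃ l, 2 * y * X0 = (2 * (2 * y + 1)) ^ l)
    (h4 : X0 = 1 + 2 * y * ((n + 1) + k * (2 * y))) (h5 : 2 * y = n + 2 + s) :
    y = 2 ^ n ∧ X0 = (2 * y + 1) ^ (n + 1) := by
  obtain ⟨i, hi⟩ := h1
  obtain ⟨j, hj⟩ := h2
  obtain ⟨l, hl⟩ := h3
  have hy : 2 * y = 2 ^ (i + 1) := by rw [hi, pow_succ]; ring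
  have e : 2 ^ (i + 1) * (2 * y + 1) ^ j = 2 ^ l * (2 * y + 1) ^ l := by
    rw [← mul_pow, ← hl, hj, hy]
  have hc : Nat.Coprime 2 (2 * y + 1) := by
    rw [Nat.coprime_two_left]
    exact ⟨y, rfl⟩
  obtain ⟨e1, e2⟩ := coprime_pow_eq (le_refl 2) hc e
  have hypos : 0 < y := by rw [hi]; positivity
  have e3 : j = l := Nat.pow_right_injective (by omega : 2 ≤ 2 * y + 1) e2
  have hX : X0 = (2 * y + 1) ^ (i + 1) := by rw [hj, e3, ← e1]
  obtain ⟨k', hk'⟩ := binom_two_terms (2 * y) (i + 1)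
  have e4 : (n + 1) + k * (2 * y) = (i + 1) + k' * (2 * y) := by
    have : 1 + 2 * y * ((n + 1) + k * (2 * y)) = 1 + 2 * y * ((i + 1) + k' * (2 * y)) := by
      rw [← h4, ← hk', hX]
    have h6 : 2 * y * ((n + 1) + k * (2 * y)) = 2 * y * ((i + 1) + k' * (2 * y)) := by omega
    exact Nat.eq_of_mul_eq_mul_left (by omega) h6
  have hi2 : i + 1 < 2 * y := by rw [hy]; exact Nat.lt_two_pow_self
  have hn2 : n + 1 < 2 * y := by omega
  have e5 : n + 1 = i + 1 := by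
    have m1 : ((n + 1) + k * (2 * y)) % (2 * y) = n + 1 := by
      rw [Nat.add_mul_mod_self_right, Nat.mod_eq_of_lt hn2]
    have m2 : ((i + 1) + k' * (2 * y)) % (2 * y) = i + 1 := by
      rw [Nat.add_mul_mod_self_right, Nat.mod_eq_of_lt hi2]
    rw [← m1, ← m2, e4]
  have e6 : n = i := by omega
  subst e6
  exact ⟨hi, hX⟩

theorem core1_ex (n : ℕ) : ∃ k s : ℕ,
    (2 * 2 ^ n + 1) ^ (n + 1) = 1 + 2 * 2 ^ n * ((n + 1) + k * (2 * 2 ^ n)) ∧
    2 * 2 ^ n = n + 2 + s := by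
  obtain ⟨k, hk⟩ := binom_two_terms (2 * 2 ^ n) (n + 1)
  have h : n + 1 < 2 ^ (n + 1) := Nat.lt_two_pow_self
  refine ⟨k, 2 * 2 ^ n - (n + 2), hk, ?_⟩
  have : 2 ^ (n + 1) = 2 * 2 ^ n := by rw [pow_succ]; ring
  omega

/-- Arithmetic core of the second layer. -/
theorem core2 {B n Z y X : ℕ} (h1 : y = 2 ^ n) (h2 : ∃ i, X = (2 * B + 3) ^ i)
    (h3 : ∃ l, y * X = (2 * (2 * B + 3)) ^ l) (h4 : ∃ j, Z = (B + 1) ^ j)
    (h5 : ∃ l, Z * X = ((B + 1) * (2 * B + 3)) ^ l) :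
    X = (2 * B + 3) ^ n ∧ Z = (B + 1) ^ n := by
  obtain ⟨i, hi⟩ := h2
  obtain ⟨l, hl⟩ := h3
  obtain ⟨j, hj⟩ := h4
  obtain ⟨l', hl'⟩ := h5
  have e : 2 ^ n * (2 * B + 3) ^ i = 2 ^ l * (2 * B + 3) ^ l := by
    rw [← mul_pow, ← hl, hi, h1]
  have hc : Nat.Coprime 2 (2 * B + 3) := by
    rw [Nat.coprime_two_left]
    exact ⟨B + 1, by ring⟩
  obtain ⟨e1, e2⟩ := coprime_pow_eq (le_refl 2) hc e
  have hX : X = (2 * B + 3) ^ n := by rw [hi, e2, ← e1]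
  refine ⟨hX, ?_⟩
  rcases Nat.eq_zero_or_pos B with hB | hB
  · subst hB
    rw [hj]; simp
  · have e' : (B + 1) ^ j * (2 * B + 3) ^ n = (B + 1) ^ l' * (2 * B + 3) ^ l' := by
      rw [← mul_pow, ← hl', hj, hX]
    have hc' : Nat.Coprime (B + 1) (2 * B + 3) := by
      have : 2 * B + 3 = 1 + (B + 1) * 2 := by ring
      rw [this]
      simp
    obtain ⟨f1, f2⟩ := coprime_pow_eq (by omega) hc' e'
    have f3 : n = l' := Nat.pow_right_injective (by omega : 2 ≤ 2 * B + 3) f2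
    rw [hj, f1, ← f3]

/-- Arithmetic core of the third layer. -/
theorem core3 {b n c M Z q s : ℕ} (h1 : M = (b + 1 + 1) ^ (n + 1)) (h2 : Z = (M + b + 1) ^ n)
    (h3 : Z = q * (M + 1) + c) (h4 : M = c + s) : c = b ^ n := by
  have hb : b ^ n < M + 1 := by
    have a1 : b ^ n ≤ (b + 1 + 1) ^ n := Nat.pow_le_pow_left (by omega) n
    have a2 : (b + 1 + 1) ^ n ≤ (b + 1 + 1) ^ (n + 1) := Nat.pow_le_pow_right (by omega) (by omega)
    omega
  have hm : (M + b + 1) ^ n % (M + 1) = b ^ n % (M + 1) := by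
    have : M + b + 1 ≡ b [MOD (M + 1)] := by
      have : M + b + 1 = b + (M + 1) := by ring
      rw [this]
      simp [Nat.ModEq]
    exact this.pow n
  have hc : c < M + 1 := by omega
  have : Z % (M + 1) = c := by
    rw [h3, Nat.mul_add_mod_of_lt hc]
  rw [← this, h2, hm, Nat.mod_eq_of_lt hb]

theorem core3_ex (b n : ℕ) : ∃ q s : ℕ,
    ((b + 1 + 1) ^ (n + 1) + b + 1) ^ n = q * ((b + 1 + 1) ^ (n + 1) + 1) + b ^ n ∧
    (b + 1 + 1) ^ (n + 1) = b ^ n + s := by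
  set M := (b + 1 + 1) ^ (n + 1) with hM
  have hb : b ^ n ≤ M := by
    have a1 : b ^ n ≤ (b + 1 + 1) ^ n := Nat.pow_le_pow_left (by omega) n
    have a2 : (b + 1 + 1) ^ n ≤ (b + 1 + 1) ^ (n + 1) := Nat.pow_le_pow_right (by omega) (by omega)
    omega
  have hm : (M + b + 1) ^ n % (M + 1) = b ^ n % (M + 1) := by
    have : M + b + 1 ≡ b [MOD (M + 1)] := by
      have : M + b + 1 = b + (M + 1) := by ring
      rw [this]
      simp [Nat.ModEq]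
    exact this.pow n
  rw [Nat.mod_eq_of_lt (by omega : b ^ n < M + 1)] at hm
  refine ⟨(M + b + 1) ^ n / (M + 1), M - b ^ n, ?_, by omega⟩
  have := Nat.div_add_mod ((M + b + 1) ^ n) (M + 1)
  rw [hm] at this
  rw [mul_comm] at this
  exact this.symm

end Vale.Agent.P345
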