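import Vale.Agent.P345.Defs

namespace Vale.Agent.P345

open MvPolynomial

/-- `Small true` means finite, `Small false` means at most one element. -/
def Small (f : Bool) {T : Type} (W : Set T) : Prop :=
  match f with
  | true => W.Finite
  | false => W.Subsingleton

theorem Small.preimage {f : Bool} {T U : Type} {W : Set U} (h : Small f W) (g : T → U)
    (hg : Function.Injective g) : Small f (g ⁻¹' W) := by
  cases f with
  | true => exact Set.Finite.preimage hg.injOn h
  | false => exact fun x hx y hy => hg (h hx hy)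

theorem Small.mono {f : Bool} {T : Type} {V W : Set T} (h : Small f W) (hs : V ⊆ W) :
    Small f V := by
  cases f with
  | true => exact Set.Finite.subset h hs
  | false => exact fun x hx y hy => h (hs hx) (hs hy)

theorem Small.of_subsingleton {f : Bool} {T : Type} {W : Set T} (h : W.Subsingleton) :
    Small f W := by
  cases f with
  | true => exact h.finite
  | false => exact h

theorem Small.sigma {f : Bool} {T U : Type} {V : Set T} {W : T → Set U} (hV : Small f V)
    (hW : ∀ v, Small f (W v)) : Small f {p : T × U | p.1 ∈ V ∧ p.2 ∈ W p.1} := by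
  cases f with
  | true =>
    have h1 : (⋃ v ∈ V, ({v} : Set T) ×ˢ W v).Finite :=
      Set.Finite.biUnion hV (fun v _ => (Set.finite_singleton v).prod (hW v))
    refine h1.subset ?_
    rintro ⟨v, u⟩ ⟨h2, h3⟩
    simp only [Set.mem_iUnion]
    exact ⟨v, h2, rfl, h3⟩
  | false =>
    rintro ⟨v, u⟩ ⟨h2, h3⟩ ⟨v', u'⟩ ⟨h2', h3'⟩
    have e : v = v' := hV h2 h2'
    subst e
    have e' : u = u' := hW v h3 h3'
    rw [e']

/-- Internal version with an arbitrary finite type of auxiliary unknowns; `f = false` is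
single-fold, `f = true` is finite-fold. -/
def SF (f : Bool) {α : Type} (S : Set (α → ℕ)) : Prop :=
  ∃ (ι : Type) (_ : Fintype ι) (P : MvPolynomial (α ⊕ ι) ℤ),
    (∀ a, a ∈ S ↔ ∃ w : ι → ℕ, eval (assign a w) P = 0) ∧
    ∀ a : α → ℕ, Small f {w : ι → ℕ | eval (assign a w) P = 0}

theorem SF_of_single {n : ℕ} {S : Set (Fin n → ℕ)} (h : HasSingleFoldRep S) : SF false S := by
  obtain ⟨m, P, h1, h2⟩ := h
  exact ⟨Fin m, inferInstance, P, h1, fun a w hw w' hw' => h2 a w w' hw hw'⟩

theorem SF_of_finite {n : ℕ} {S : Set (Fin n → ℕ)} (h : HasFiniteFoldRep S) : SF true S := by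
  obtain ⟨m, P, h1, h2⟩ := h
  exact ⟨Fin m, inferInstance, P, h1, h2⟩

theorem assign_comp_map {α ι κ : Type} (a : α → ℕ) (w : κ → ℕ) (e : ι → κ) :
    assign a w ∘ Sum.map id e = assign a (w ∘ e) := by
  funext x
  cases x <;> rfl

theorem fin_of_SF {f : Bool} {n : ℕ} {S : Set (Fin n → ℕ)} (h : SF f S) :
    ∃ (m : ℕ) (P : MvPolynomial (Fin n ⊕ Fin m) ℤ),
      (∀ a, a ∈ S ↔ ∃ w : Fin m → ℕ, eval (assign a w) P = 0) ∧
      ∀ a : Fin n → ℕ, Small f {w : Fin m → ℕ | eval (assign a w) P = 0} := by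
  obtain ⟨ι, hι, P, h1, h2⟩ := h
  let e : ι ≃ Fin (Fintype.card ι) := Fintype.equivFin ι
  refine ⟨Fintype.card ι, rename (Sum.map id e) P, ?_, ?_⟩
  · intro a
    rw [h1 a]
    constructor
    · rintro ⟨w, hw⟩
      refine ⟨w ∘ e.symm, ?_⟩
      rw [eval_rename, assign_comp_map]
      have : (w ∘ e.symm) ∘ e = w := by funext x; simp
      rw [this]; exact hw
    · rintro ⟨w, hw⟩
      refine ⟨w ∘ e, ?_⟩
      rw [eval_rename, assign_comp_map] at hw
      exact hw
  · intro a
    have hinj : Function.Injective (fun w : Fin (Fintype.card ι) → ℕ => w ∘ e) := by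
      intro w w' hww
      funext x
      have h3 := congrFun hww (e.symm x)
      simpa using h3
    refine ((h2 a).preimage _ hinj).mono ?_
    intro w hw
    have hw' : eval (assign a w) (rename (Sum.map id e) P) = 0 := hw
    rw [eval_rename, assign_comp_map] at hw'
    exact hw'

theorem single_of_SF {n : ℕ} {S : Set (Fin n → ℕ)} (h : SF false S) : HasSingleFoldRep S := by
  obtain ⟨m, P, h1, h2⟩ := fin_of_SF h
  exact ⟨m, P, h1, fun a w w' hw hw' => h2 a hw hw'⟩

theorem finite_of_SF {n : ℕ} {S : Set (Fin n → ℕ)} (h : SF true S) : HasFiniteFoldRep S := by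
  obtain ⟨m, P, h1, h2⟩ := fin_of_SF h
  exact ⟨m, P, h1, h2⟩

/-- Sets given by one polynomial equation in the parameters. -/
theorem SF_poly (f : Bool) {α : Type} (p : MvPolynomial α ℤ) :
    SF f {a : α → ℕ | eval (fun i => (a i : ℤ)) p = 0} := by
  refine ⟨Empty, inferInstance, rename Sum.inl p, ?_, ?_⟩
  · intro a
    have key : ∀ w : Empty → ℕ, eval (assign a w) (rename Sum.inl p)
        = eval (fun i => (a i : ℤ)) p := by
      intro w
      rw [eval_rename]; rfl
    constructor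
    · intro h
      exact ⟨fun x => x.elim, by rw [key]; exact h⟩
    · rintro ⟨w, hw⟩
      rw [key] at hw; exact hw
  · intro a
    refine Small.of_subsingleton ?_
    intro w _ w' _
    funext x; exact x.elim

theorem split_injective (ι κ : Type) :
    Function.Injective (fun w : ι ⊕ κ → ℕ => (w ∘ Sum.inl, w ∘ Sum.inr)) := by
  intro w w' h
  have h1 := congrArg Prod.fst h
  have h2 := congrArg Prod.snd h
  funext x
  cases x with
  | inl x => exact congrFun h1 x
  | inr x => exact congrFun h2 x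

/-- Conjunction. -/
theorem SF_inter {f : Bool} {α : Type} {S T : Set (α → ℕ)} (hS : SF f S) (hT : SF f T) :
    SF f (S ∩ T) := by
  obtain ⟨ι, hι, P, p1, p2⟩ := hS
  obtain ⟨κ, hκ, Q, q1, q2⟩ := hT
  have key : ∀ (a : α → ℕ) (w : ι ⊕ κ → ℕ),
      eval (assign a w) ((rename (Sum.map id Sum.inl) P) ^ 2 + (rename (Sum.map id Sum.inr) Q) ^ 2) = 0
        ↔ eval (assign a (w ∘ Sum.inl)) P = 0 ∧ eval (assign a (w ∘ Sum.inr)) Q = 0 := by
    intro a w
    rw [map_add, map_pow, map_pow, eval_rename, eval_rename, assign_comp_map, assign_comp_map]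
    constructor
    · intro h
      constructor <;> nlinarith [sq_nonneg (eval (assign a (w ∘ Sum.inl)) P),
        sq_nonneg (eval (assign a (w ∘ Sum.inr)) Q)]
    · rintro ⟨h1, h2⟩
      rw [h1, h2]; norm_num
  refine ⟨ι ⊕ κ, inferInstance,
    (rename (Sum.map id Sum.inl) P) ^ 2 + (rename (Sum.map id Sum.inr) Q) ^ 2, ?_, ?_⟩
  · intro a
    constructor
    · rintro ⟨hs, ht⟩
      obtain ⟨w, hw⟩ := (p1 a).1 hs
      obtain ⟨v, hv⟩ := (q1 a).1 ht
      exact ⟨Sum.elim w v, (key a _).2 ⟨hw, hv⟩⟩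
    · rintro ⟨w, hw⟩
      obtain ⟨h1, h2⟩ := (key a w).1 hw
      exact ⟨(p1 a).2 ⟨_, h1⟩, (q1 a).2 ⟨_, h2⟩⟩
  · intro a
    have hs := Small.sigma (p2 a) (fun _ : ι → ℕ => q2 a)
    refine (hs.preimage _ (split_injective ι κ)).mono ?_
    intro w hw
    exact (key a w).1 hw

/-- Substitution of polynomial terms with natural values. -/
theorem SF_subst {f : Bool} {α β : Type} {S : Set (β → ℕ)} (hS : SF f S)
    (τ : (α → ℕ) → (β → ℕ)) (t : β → MvPolynomial α ℤ)
    (ht : ∀ a j, eval (fun i => (a i : ℤ)) (t j) = (τ a j : ℤ)) :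
    SF f {a : α → ℕ | τ a ∈ S} := by
  obtain ⟨ι, hι, P, p1, p2⟩ := hS
  have key : ∀ (a : α → ℕ) (w : ι → ℕ),
      eval (assign a w) (bind₁ (Sum.elim (fun j => rename Sum.inl (t j)) (fun k => X (Sum.inr k))) P)
        = eval (assign (τ a) w) P := by
    intro a w
    have := eval₂Hom_bind₁ (RingHom.id ℤ) (assign a w)
      (Sum.elim (fun j => rename Sum.inl (t j)) (fun k => X (Sum.inr k))) P
    have h2 : (fun i => eval₂Hom (RingHom.id ℤ) (assign a w)
        ((Sum.elim (fun j => rename Sum.inl (t j)) (fun k => X (Sum.inr k)) :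
          β ⊕ ι → MvPolynomial (α ⊕ ι) ℤ) i)) = assign (τ a) w := by
      funext x
      cases x with
      | inl j =>
        show eval (assign a w) (rename Sum.inl (t j)) = _
        rw [eval_rename]
        exact ht a j
      | inr k =>
        show eval (assign a w) (X (Sum.inr k)) = _
        rw [eval_X]; rfl
    rw [h2] at this
    exact this
  refine ⟨ι, hι,
    bind₁ (Sum.elim (fun j => rename Sum.inl (t j)) (fun k => X (Sum.inr k))) P, ?_, ?_⟩
  · intro a
    show τ a ∈ S ↔ _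
    rw [p1 (τ a)]
    constructor
    · rintro ⟨w, hw⟩; exact ⟨w, by rw [key]; exact hw⟩
    · rintro ⟨w, hw⟩; exact ⟨w, by rw [key] at hw; exact hw⟩
  · intro a
    refine (p2 (τ a)).mono ?_
    intro w hw
    have hw' : eval (assign a w)
      (bind₁ (Sum.elim (fun j => rename Sum.inl (t j)) (fun k => X (Sum.inr k))) P) = 0 := hw
    rw [key] at hw'
    exact hw'

/-- Existential quantification over unknowns with few values. -/
theorem SF_ex' {f : Bool} {α γ : Type} [Fintype γ] {S : Set (α ⊕ γ → ℕ)} (hS : SF f S)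
    (hfew : ∀ a : α → ℕ, Small f {v : γ → ℕ | Sum.elim a v ∈ S}) :
    SF f {a : α → ℕ | ∃ v : γ → ℕ, Sum.elim a v ∈ S} := by
  obtain ⟨ι, hι, P, p1, p2⟩ := hS
  have key : ∀ (a : α → ℕ) (u : γ ⊕ ι → ℕ),
      eval (assign a u) (rename (Equiv.sumAssoc α γ ι) P)
        = eval (assign (Sum.elim a (u ∘ Sum.inl)) (u ∘ Sum.inr)) P := by
    intro a u
    rw [eval_rename]
    have h : assign a u ∘ (Equiv.sumAssoc α γ ι)
        = assign (Sum.elim a (u ∘ Sum.inl)) (u ∘ Sum.inr) := by
      funext x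
      rcases x with (x | x) | x <;> rfl
    rw [h]
  refine ⟨γ ⊕ ι, inferInstance, rename (Equiv.sumAssoc α γ ι) P, ?_, ?_⟩
  · intro a
    constructor
    · rintro ⟨v, hv⟩
      obtain ⟨w, hw⟩ := (p1 _).1 hv
      exact ⟨Sum.elim v w, by rw [key]; exact hw⟩
    · rintro ⟨u, hu⟩
      rw [key] at hu
      exact ⟨u ∘ Sum.inl, (p1 _).2 ⟨_, hu⟩⟩
  · intro a
    have hs := Small.sigma (hfew a) (fun v : γ → ℕ => p2 (Sum.elim a v))
    refine (hs.preimage _ (split_injective γ ι)).mono ?_
    intro u hu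
    have hu' : eval (assign a u) (rename (Equiv.sumAssoc α γ ι) P) = 0 := hu
    rw [key] at hu'
    exact ⟨(p1 _).2 ⟨_, hu'⟩, hu'⟩

/-- Existential quantification over uniquely determined unknowns. -/
theorem SF_ex {f : Bool} {α γ : Type} [Fintype γ] {S : Set (α ⊕ γ → ℕ)} (hS : SF f S)
    (huniq : ∀ (a : α → ℕ) (v v' : γ → ℕ), Sum.elim a v ∈ S → Sum.elim a v' ∈ S → v = v') :
    SF f {a : α → ℕ | ∃ v : γ → ℕ, Sum.elim a v ∈ S} :=
  SF_ex' hS (fun a => Small.of_subsingleton (fun v hv v' hv' => huniq a v v' hv hv'))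

end Vale.Agent.P345
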