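import Vale.Agent.P345.Sandwich

namespace Vale.Agent.P345

theorem pow_canon_ex (a k : ℕ) : ∃ n s : ℕ,
    a ^ k = a ^ n ∧ n + s + 2 * a * (a ^ k + 1) = (a * a + 1) * (a ^ k + 1) := by
  rcases Nat.lt_or_ge a 2 with ha | ha
  · interval_cases a
    · rcases Nat.eq_zero_or_pos k with hk | hk
      · subst hk
        exact ⟨0, 2, rfl, by norm_num⟩
      · refine ⟨1, 0, ?_, ?_⟩
        · rw [zero_pow (by omega), zero_pow (by omega)]
        · rw [zero_pow (by omega)]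
          norm_num
    · exact ⟨0, 0, by simp, by simp⟩
  · have a1 : k < 2 ^ k := Nat.lt_two_pow_self
    have a2 : 2 ^ k ≤ a ^ k := Nat.pow_le_pow_left ha k
    have a3 : 2 * a + 1 ≤ a * a + 1 := by nlinarith
    have a4 : (2 * a + 1) * (a ^ k + 1) ≤ (a * a + 1) * (a ^ k + 1) :=
      Nat.mul_le_mul_right _ a3
    have a5 : (2 * a + 1) * (a ^ k + 1) = 2 * a * (a ^ k + 1) + (a ^ k + 1) := by ring
    refine ⟨k, (a * a + 1) * (a ^ k + 1) - 2 * a * (a ^ k + 1) - k, rfl, ?_⟩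
    omega

theorem pow_canon_uniq {a c n s n' s' : ℕ} (h1 : c = a ^ n)
    (h2 : n + s + 2 * a * (c + 1) = (a * a + 1) * (c + 1)) (h1' : c = a ^ n')
    (h2' : n' + s' + 2 * a * (c + 1) = (a * a + 1) * (c + 1)) : n = n' ∧ s = s' := by
  have key : n = n' := by
    rcases Nat.lt_or_ge a 2 with ha | ha
    · interval_cases a
      · simp only [mul_zero, zero_mul, add_zero, zero_add, one_mul] at h2 h2'
        rcases Nat.eq_zero_or_pos n with hn | hn
        · subst hn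
          rcases Nat.eq_zero_or_pos n' with hn' | hn'
          · exact hn'.symm
          · rw [zero_pow (by omega)] at h1'
            rw [h1'] at h1
            simp at h1
        · rw [zero_pow (by omega)] at h1
          rcases Nat.eq_zero_or_pos n' with hn' | hn'
          · subst hn'
            rw [h1] at h1'
            simp at h1'
          · omega
      · omega
    · exact Nat.pow_right_injective ha (h1.symm.trans h1')
  subst key
  exact ⟨rfl, by omega⟩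

theorem two_eqs (x y u v : ℕ) :
    x * x + y * y + (u * u + v * v) = 2 * x * y + 2 * u * v ↔ x = y ∧ u = v := by
  constructor
  · intro h
    have hz : ((x : ℤ) - y) ^ 2 + ((u : ℤ) - v) ^ 2 = 0 := by
      have : (x : ℤ) * x + y * y + (u * u + v * v) = 2 * x * y + 2 * u * v := by exact_mod_cast h
      nlinarith
    have h1 : ((x : ℤ) - y) ^ 2 = 0 := by nlinarith [sq_nonneg ((x : ℤ) - y), sq_nonneg ((u : ℤ) - v)]
    have h2 : ((u : ℤ) - v) ^ 2 = 0 := by nlinarith [sq_nonneg ((x : ℤ) - y), sq_nonneg ((u : ℤ) - v)]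
    have h3 : (x : ℤ) - y = 0 := by simpa using h1
    have h4 : (u : ℤ) - v = 0 := by simpa using h2
    constructor <;> omega
  · rintro ⟨rfl, rfl⟩
    ring

/-- The two sides of an exponential Diophantine equation for `c is a power of a`; parameters
`a, c`, unknowns `n, s`. -/
def powLeft : ExpTerm (Fin 2 ⊕ Fin 2) :=
  let a : ExpTerm (Fin 2 ⊕ Fin 2) := .var (Sum.inl 0)
  let c : ExpTerm (Fin 2 ⊕ Fin 2) := .var (Sum.inl 1)
  let n : ExpTerm (Fin 2 ⊕ Fin 2) := .var (Sum.inr 0)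
  let s : ExpTerm (Fin 2 ⊕ Fin 2) := .var (Sum.inr 1)
  let L : ExpTerm (Fin 2 ⊕ Fin 2) :=
    .add (.add n s) (.mul (.mul (.const 2) a) (.add c (.const 1)))
  let R : ExpTerm (Fin 2 ⊕ Fin 2) := .mul (.add (.mul a a) (.const 1)) (.add c (.const 1))
  .add (.add (.mul c c) (.mul (.pow a n) (.pow a n))) (.add (.mul L L) (.mul R R))

def powRight : ExpTerm (Fin 2 ⊕ Fin 2) :=
  let a : ExpTerm (Fin 2 ⊕ Fin 2) := .var (Sum.inl 0)
  let c : ExpTerm (Fin 2 ⊕ Fin 2) := .var (Sum.inl 1)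
  let n : ExpTerm (Fin 2 ⊕ Fin 2) := .var (Sum.inr 0)
  let s : ExpTerm (Fin 2 ⊕ Fin 2) := .var (Sum.inr 1)
  let L : ExpTerm (Fin 2 ⊕ Fin 2) :=
    .add (.add n s) (.mul (.mul (.const 2) a) (.add c (.const 1)))
  let R : ExpTerm (Fin 2 ⊕ Fin 2) := .mul (.add (.mul a a) (.const 1)) (.add c (.const 1))
  .add (.mul (.mul (.const 2) c) (.pow a n)) (.mul (.mul (.const 2) L) R)

theorem pow_sides (v : Fin 2 → ℕ) (w : Fin 2 → ℕ) :
    powLeft.eval (Sum.elim v w) = powRight.eval (Sum.elim v w) ↔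
      v 1 = v 0 ^ w 0 ∧ w 0 + w 1 + 2 * v 0 * (v 1 + 1) = (v 0 * v 0 + 1) * (v 1 + 1) :=
  two_eqs (v 1) (v 0 ^ w 0) (w 0 + w 1 + 2 * v 0 * (v 1 + 1)) ((v 0 * v 0 + 1) * (v 1 + 1))

theorem powRel_singleFoldExp : HasSingleFoldExpRep powRel := by
  refine ⟨2, powLeft, powRight, ?_, ?_⟩
  · intro v
    constructor
    · rintro ⟨k, hk⟩
      obtain ⟨n, s, h1, h2⟩ := pow_canon_ex (v 0) k
      refine ⟨![n, s], (pow_sides v _).2 ⟨?_, ?_⟩⟩
      · show v 1 = v 0 ^ n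
        rw [hk, h1]
      · show n + s + 2 * v 0 * (v 1 + 1) = (v 0 * v 0 + 1) * (v 1 + 1)
        rw [hk]; exact h2
    · rintro ⟨w, hw⟩
      exact ⟨w 0, ((pow_sides v w).1 hw).1⟩
  · intro v w w' hw hw'
    obtain ⟨h1, h2⟩ := (pow_sides v w).1 hw
    obtain ⟨h1', h2'⟩ := (pow_sides v w').1 hw'
    obtain ⟨e1, e2⟩ := pow_canon_uniq h1 h2 h1' h2'
    funext j
    fin_cases j
    · exact e1
    · exact e2

theorem powRel_finiteFoldExp : HasFiniteFoldExpRep powRel := by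
  obtain ⟨m, E₁, E₂, h1, h2⟩ := powRel_singleFoldExp
  refine ⟨m, E₁, E₂, h1, fun a => Set.Subsingleton.finite ?_⟩
  intro w hw w' hw'
  exact h2 a w w' hw hw'

theorem single_sandwich {J : Set (Fin 2 → ℕ)}
    (hlow : ∀ a k : ℕ, k < a → (![a, a ^ k] : Fin 2 → ℕ) ∈ J) (hup : J ⊆ powRel)
    (h : HasSingleFoldRep J) :
    ∀ (n : ℕ) (S : Set (Fin n → ℕ)), HasSingleFoldExpRep S → HasSingleFoldRep S := by
  have hexp := SF_expRel_of_sandwich (SF_of_single h) hlow hup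
  rintro n S ⟨m, E₁, E₂, h1, h2⟩
  have := SF_elim hexp E₁ E₂ (fun a w hw w' hw' => h2 a w w' hw hw')
  have hS : S = {a : Fin n → ℕ | ∃ w : Fin m → ℕ,
      E₁.eval (Sum.elim a w) = E₂.eval (Sum.elim a w)} := Set.ext h1
  rw [hS]
  exact single_of_SF this

theorem finite_sandwich {J : Set (Fin 2 → ℕ)}
    (hlow : ∀ a k : ℕ, k < a → (![a, a ^ k] : Fin 2 → ℕ) ∈ J) (hup : J ⊆ powRel)
    (h : HasFiniteFoldRep J) :
    ∀ (n : ℕ) (S : Set (Fin n → ℕ)), HasFiniteFoldExpRep S → HasFiniteFoldRep S := by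
  have hexp := SF_expRel_of_sandwich (SF_of_finite h) hlow hup
  rintro n S ⟨m, E₁, E₂, h1, h2⟩
  have := SF_elim hexp E₁ E₂ h2
  have hS : S = {a : Fin n → ℕ | ∃ w : Fin m → ℕ,
      E₁.eval (Sum.elim a w) = E₂.eval (Sum.elim a w)} := Set.ext h1
  rw [hS]
  exact finite_of_SF this

end Vale.Agent.P345
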