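import Mathlib

namespace Vale.Agent.P345

open MvPolynomial

/-- The integer assignment given by the parameters `a` and the auxiliary unknowns `w`
(all of them natural numbers). -/
def assign {α ι : Type} (a : α → ℕ) (w : ι → ℕ) : α ⊕ ι → ℤ :=
  Sum.elim (fun i => (a i : ℤ)) (fun j => (w j : ℤ))

/-- `P`, a polynomial with integer coefficients in the parameters `A_i` (`i : Fin n`) and the
auxiliary unknowns `W_j` (`j : Fin m`), is a single-fold Diophantine representation of `S`: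
`a ∈ S` iff `P (a, w) = 0` for some `w ∈ ℕ^m`, and for every `a` there is at most one such `w`. -/
def IsSingleFoldRep {n m : ℕ} (S : Set (Fin n → ℕ)) (P : MvPolynomial (Fin n ⊕ Fin m) ℤ) : Prop :=
  (∀ a, a ∈ S ↔ ∃ w : Fin m → ℕ, eval (assign a w) P = 0) ∧
  ∀ (a : Fin n → ℕ) (w w' : Fin m → ℕ),
    eval (assign a w) P = 0 → eval (assign a w') P = 0 → w = w'

/-- `P` is a finite-fold Diophantine representation of `S`: for every `a` the set of solutions `w`
is finite. -/
def IsFiniteFoldRep {n m : ℕ} (S : Set (Fin n → ℕ)) (P : MvPolynomial (Fin n ⊕ Fin m) ℤ) : Prop :=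
  (∀ a, a ∈ S ↔ ∃ w : Fin m → ℕ, eval (assign a w) P = 0) ∧
  ∀ a : Fin n → ℕ, {w : Fin m → ℕ | eval (assign a w) P = 0}.Finite

/-- `S` has a single-fold Diophantine representation. -/
def HasSingleFoldRep {n : ℕ} (S : Set (Fin n → ℕ)) : Prop :=
  ∃ (m : ℕ) (P : MvPolynomial (Fin n ⊕ Fin m) ℤ), IsSingleFoldRep S P

/-- `S` has a finite-fold Diophantine representation. -/
def HasFiniteFoldRep {n : ℕ} (S : Set (Fin n → ℕ)) : Prop :=
  ∃ (m : ℕ) (P : MvPolynomial (Fin n ⊕ Fin m) ℤ), IsFiniteFoldRep S P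

/-- Exponential expressions: built from variables and natural constants by addition,
multiplication and exponentiation. -/
inductive ExpTerm (σ : Type) : Type
  | var : σ → ExpTerm σ
  | const : ℕ → ExpTerm σ
  | add : ExpTerm σ → ExpTerm σ → ExpTerm σ
  | mul : ExpTerm σ → ExpTerm σ → ExpTerm σ
  | pow : ExpTerm σ → ExpTerm σ → ExpTerm σ

/-- The value of an exponential expression (in `ℕ`, where `0 ^ 0 = 1`). -/
def ExpTerm.eval {σ : Type} (x : σ → ℕ) : ExpTerm σ → ℕ
  | .var i => x i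
  | .const c => c
  | .add s t => s.eval x + t.eval x
  | .mul s t => s.eval x * t.eval x
  | .pow s t => s.eval x ^ t.eval x

/-- `S` has a single-fold exponential Diophantine representation `E₁ (a, w) = E₂ (a, w)`. -/
def HasSingleFoldExpRep {n : ℕ} (S : Set (Fin n → ℕ)) : Prop :=
  ∃ (m : ℕ) (E₁ E₂ : ExpTerm (Fin n ⊕ Fin m)),
    (∀ a, a ∈ S ↔ ∃ w : Fin m → ℕ, E₁.eval (Sum.elim a w) = E₂.eval (Sum.elim a w)) ∧
    ∀ (a : Fin n → ℕ) (w w' : Fin m → ℕ),
      E₁.eval (Sum.elim a w) = E₂.eval (Sum.elim a w) →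
      E₁.eval (Sum.elim a w') = E₂.eval (Sum.elim a w') → w = w'

/-- `S` has a finite-fold exponential Diophantine representation. -/
def HasFiniteFoldExpRep {n : ℕ} (S : Set (Fin n → ℕ)) : Prop :=
  ∃ (m : ℕ) (E₁ E₂ : ExpTerm (Fin n ⊕ Fin m)),
    (∀ a, a ∈ S ↔ ∃ w : Fin m → ℕ, E₁.eval (Sum.elim a w) = E₂.eval (Sum.elim a w)) ∧
    ∀ a : Fin n → ℕ, {w : Fin m → ℕ | E₁.eval (Sum.elim a w) = E₂.eval (Sum.elim a w)}.Finite

/-- The binary relation `c is a power of a`: pairs `(a, c)` with `c = a ^ k` for some `k`. -/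
def powRel : Set (Fin 2 → ℕ) := {v | ∃ k : ℕ, v 1 = v 0 ^ k}

/-- The graph of exponentiation: triples `(b, n, c)` with `c = b ^ n` (and `0 ^ 0 = 1`). -/
def expRel : Set (Fin 3 → ℕ) := {v | v 2 = v 0 ^ v 1}

end Vale.Agent.P345
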