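import Vale.Agent.P345.Layers

namespace Vale.Agent.P345

open MvPolynomial

/-- Graphs of functions are closed under composition with a binary operation whose graph is
representable. -/
theorem SF_graph_op {f : Bool} {σ : Type} {R : Set (Fin 3 → ℕ)} (op : ℕ → ℕ → ℕ) (hR : SF f R)
    (hop : ∀ u v z, (![u, v, z] : Fin 3 → ℕ) ∈ R ↔ z = op u v) (g1 g2 : (σ → ℕ) → ℕ)
    (h1 : SF f {x : σ ⊕ Unit → ℕ | x (Sum.inr ()) = g1 (fun i => x (Sum.inl i))})
    (h2 : SF f {x : σ ⊕ Unit → ℕ | x (Sum.inr ()) = g2 (fun i => x (Sum.inl i))}) :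
    SF f {x : σ ⊕ Unit → ℕ |
      x (Sum.inr ()) = op (g1 (fun i => x (Sum.inl i))) (g2 (fun i => x (Sum.inl i)))} := by
  have c1 := SF_subst h1
    (fun y : (σ ⊕ Unit) ⊕ Fin 2 → ℕ =>
      (Sum.elim (fun i => y (Sum.inl (Sum.inl i))) (fun _ => y (Sum.inr 0)) : σ ⊕ Unit → ℕ))
    (Sum.elim (fun i => X (Sum.inl (Sum.inl i))) (fun _ => X (Sum.inr 0))) (by
      intro a j; cases j <;> simp)
  have c2 := SF_subst h2
    (fun y : (σ ⊕ Unit) ⊕ Fin 2 → ℕ =>
      (Sum.elim (fun i => y (Sum.inl (Sum.inl i))) (fun _ => y (Sum.inr 1)) : σ ⊕ Unit → ℕ))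
    (Sum.elim (fun i => X (Sum.inl (Sum.inl i))) (fun _ => X (Sum.inr 1))) (by
      intro a j; cases j <;> simp)
  have c3 := SF_subst hR
    (fun y : (σ ⊕ Unit) ⊕ Fin 2 → ℕ =>
      (![y (Sum.inr 0), y (Sum.inr 1), y (Sum.inl (Sum.inr ()))] : Fin 3 → ℕ))
    ![X (Sum.inr 0), X (Sum.inr 1), X (Sum.inl (Sum.inr ()))] (by
      intro a j; fin_cases j <;> simp)
  have hS := SF_inter c1 (SF_inter c2 c3)
  have hex := SF_ex hS (by
    intro x v v' hv hv'
    obtain ⟨a1, a2, _⟩ := hv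
    obtain ⟨b1, b2, _⟩ := hv'
    have a1' : v 0 = g1 (fun i => x (Sum.inl i)) := a1
    have a2' : v 1 = g2 (fun i => x (Sum.inl i)) := a2
    have b1' : v' 0 = g1 (fun i => x (Sum.inl i)) := b1
    have b2' : v' 1 = g2 (fun i => x (Sum.inl i)) := b2
    funext j
    fin_cases j
    · show v 0 = v' 0
      rw [a1', b1']
    · show v 1 = v' 1
      rw [a2', b2'])
  refine cast ?_ hex
  congr 1
  ext x
  constructor
  · rintro ⟨v, a1, a2, a3⟩
    have a1' : v 0 = g1 (fun i => x (Sum.inl i)) := a1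
    have a2' : v 1 = g2 (fun i => x (Sum.inl i)) := a2
    have a3' : x (Sum.inr ()) = op (v 0) (v 1) := (hop _ _ _).1 a3
    show x (Sum.inr ()) = _
    rw [a3', a1', a2']
  · intro hx
    refine ⟨![g1 (fun i => x (Sum.inl i)), g2 (fun i => x (Sum.inl i))], ?_, ?_, ?_⟩
    · show g1 (fun i => x (Sum.inl i)) = g1 (fun i => x (Sum.inl i))
      rfl
    · show g2 (fun i => x (Sum.inl i)) = g2 (fun i => x (Sum.inl i))
      rfl
    · exact (hop _ _ _).2 hx

theorem SF_addRel (f : Bool) : SF f {v : Fin 3 → ℕ | v 2 = v 0 + v 1} :=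
  SF_eq (X 2) (X 0 + X 1) (fun v => v 2) (fun v => v 0 + v 1)
    (by intro a; simp) (by intro a; simp)

theorem SF_mulRel (f : Bool) : SF f {v : Fin 3 → ℕ | v 2 = v 0 * v 1} :=
  SF_eq (X 2) (X 0 * X 1) (fun v => v 2) (fun v => v 0 * v 1)
    (by intro a; simp) (by intro a; simp)

/-- The graph of every exponential expression is representable once exponentiation is. -/
theorem SF_graph {f : Bool} (hexp : SF f expRel) {σ : Type} (E : ExpTerm σ) :
    SF f {x : σ ⊕ Unit → ℕ | x (Sum.inr ()) = E.eval (fun i => x (Sum.inl i))} := by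
  induction E with
  | var i =>
    exact SF_eq (X (Sum.inr ())) (X (Sum.inl i)) (fun x => x (Sum.inr ()))
      (fun x => x (Sum.inl i)) (by intro a; simp) (by intro a; simp)
  | const c =>
    exact SF_eq (X (Sum.inr ())) (C (c : ℤ)) (fun x => x (Sum.inr ()))
      (fun _ => c) (by intro a; simp) (by intro a; simp)
  | add s t hs ht =>
    exact SF_graph_op (fun u v => u + v) (SF_addRel f) (fun _ _ _ => Iff.rfl)
      (fun x => s.eval x) (fun x => t.eval x) hs ht
  | mul s t hs ht =>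
    exact SF_graph_op (fun u v => u * v) (SF_mulRel f) (fun _ _ _ => Iff.rfl)
      (fun x => s.eval x) (fun x => t.eval x) hs ht
  | pow s t hs ht =>
    exact SF_graph_op (fun u v => u ^ v) hexp (fun _ _ _ => Iff.rfl)
      (fun x => s.eval x) (fun x => t.eval x) hs ht

/-- Elimination of exponentiation from an exponential Diophantine representation. -/
theorem SF_elim {f : Bool} (hexp : SF f expRel) {n m : ℕ} (E₁ E₂ : ExpTerm (Fin n ⊕ Fin m))
    (hfew : ∀ a : Fin n → ℕ,
      Small f {w : Fin m → ℕ | E₁.eval (Sum.elim a w) = E₂.eval (Sum.elim a w)}) :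
    SF f {a : Fin n → ℕ | ∃ w : Fin m → ℕ, E₁.eval (Sum.elim a w) = E₂.eval (Sum.elim a w)} := by
  have hG := SF_inter (SF_graph hexp E₁) (SF_graph hexp E₂)
  have hT0 := SF_ex (γ := Unit) hG (by
    intro x z z' hz hz'
    have a1 : z () = E₁.eval x := hz.1
    have b1 : z' () = E₁.eval x := hz'.1
    funext j
    cases j
    rw [a1, b1])
  have hT : SF f {x : Fin n ⊕ Fin m → ℕ | E₁.eval x = E₂.eval x} := by
    refine cast ?_ hT0
    congr 1
    ext x
    constructor
    · rintro ⟨z, a1, a2⟩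
      have a1' : z () = E₁.eval x := a1
      have a2' : z () = E₂.eval x := a2
      show E₁.eval x = E₂.eval x
      rw [← a1', a2']
    · intro hx
      have hx' : E₁.eval x = E₂.eval x := hx
      refine ⟨fun _ => E₁.eval x, ?_, ?_⟩
      · show E₁.eval x = E₁.eval x
        rfl
      · show E₁.eval x = E₂.eval x
        exact hx'
  exact SF_ex' hT hfew

theorem single_main (h : HasSingleFoldRep powRel) :
    HasSingleFoldRep expRel ∧
      ∀ (n : ℕ) (S : Set (Fin n → ℕ)), HasSingleFoldExpRep S → HasSingleFoldRep S := by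
  have hexp := SF_expRel (SF_of_single h)
  refine ⟨single_of_SF hexp, ?_⟩
  rintro n S ⟨m, E₁, E₂, h1, h2⟩
  have := SF_elim hexp E₁ E₂ (fun a w hw w' hw' => h2 a w w' hw hw')
  have hS : S = {a : Fin n → ℕ | ∃ w : Fin m → ℕ,
      E₁.eval (Sum.elim a w) = E₂.eval (Sum.elim a w)} := Set.ext h1
  rw [hS]
  exact single_of_SF this

theorem finite_main (h : HasFiniteFoldRep powRel) :
    HasFiniteFoldRep expRel ∧
      ∀ (n : ℕ) (S : Set (Fin n → ℕ)), HasFiniteFoldExpRep S → HasFiniteFoldRep S := by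
  have hexp := SF_expRel (SF_of_finite h)
  refine ⟨finite_of_SF hexp, ?_⟩
  rintro n S ⟨m, E₁, E₂, h1, h2⟩
  have := SF_elim hexp E₁ E₂ h2
  have hS : S = {a : Fin n → ℕ | ∃ w : Fin m → ℕ,
      E₁.eval (Sum.elim a w) = E₂.eval (Sum.elim a w)} := Set.ext h1
  rw [hS]
  exact finite_of_SF this

end Vale.Agent.P345
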