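import Vale.Agent.P345.Calc
import Vale.Agent.P345.Arith

namespace Vale.Agent.P345

open MvPolynomial

theorem SF_eq {f : Bool} {α : Type} (p q : MvPolynomial α ℤ) (u v : (α → ℕ) → ℕ)
    (hu : ∀ a, eval (fun i => (a i : ℤ)) p = (u a : ℤ))
    (hv : ∀ a, eval (fun i => (a i : ℤ)) q = (v a : ℤ)) :
    SF f {a : α → ℕ | u a = v a} := by
  have hset : {a : α → ℕ | u a = v a} = {a : α → ℕ | eval (fun i => (a i : ℤ)) (p - q) = 0} := by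
    ext a
    simp only [Set.mem_ofPred_eq, map_sub, hu, hv, sub_eq_zero]
    exact Nat.cast_inj.symm
  rw [hset]
  exact SF_poly f (p - q)

theorem mem_powRel (u v : ℕ) : (![u, v] : Fin 2 → ℕ) ∈ powRel ↔ ∃ k, v = u ^ k := Iff.rfl

/-- Pairs `(n, y)` with `y = 2 ^ n`. -/
def twoPow : Set (Fin 2 → ℕ) := {v | v 1 = 2 ^ v 0}

theorem mem_twoPow (n y : ℕ) : (![n, y] : Fin 2 → ℕ) ∈ twoPow ↔ y = 2 ^ n := Iff.rfl

theorem SF_twoPow {f : Bool} (h : SF f powRel) : SF f twoPow := by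
  have c1 : SF f {x : Fin 2 ⊕ Fin 3 → ℕ | (![2, x (Sum.inl 1)] : Fin 2 → ℕ) ∈ powRel} :=
    SF_subst h (fun x : Fin 2 ⊕ Fin 3 → ℕ => ![2, x (Sum.inl 1)]) ![C 2, X (Sum.inl 1)] (by
      intro a j; fin_cases j <;> simp)
  have c2 : SF f {x : Fin 2 ⊕ Fin 3 → ℕ |
      (![2 * x (Sum.inl 1) + 1, x (Sum.inr 0)] : Fin 2 → ℕ) ∈ powRel} :=
    SF_subst h (fun x : Fin 2 ⊕ Fin 3 → ℕ => ![2 * x (Sum.inl 1) + 1, x (Sum.inr 0)])
      ![C 2 * X (Sum.inl 1) + C 1, X (Sum.inr 0)] (by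
      intro a j; fin_cases j <;> simp)
  have c3 : SF f {x : Fin 2 ⊕ Fin 3 → ℕ |
      (![2 * (2 * x (Sum.inl 1) + 1), 2 * x (Sum.inl 1) * x (Sum.inr 0)] : Fin 2 → ℕ) ∈ powRel} :=
    SF_subst h (fun x : Fin 2 ⊕ Fin 3 → ℕ => ![2 * (2 * x (Sum.inl 1) + 1), 2 * x (Sum.inl 1) * x (Sum.inr 0)])
      ![C 2 * (C 2 * X (Sum.inl 1) + C 1), C 2 * X (Sum.inl 1) * X (Sum.inr 0)] (by
      intro a j; fin_cases j <;> simp)
  have c4 : SF f {x : Fin 2 ⊕ Fin 3 → ℕ | x (Sum.inr 0)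
      = 1 + 2 * x (Sum.inl 1) * ((x (Sum.inl 0) + 1) + x (Sum.inr 1) * (2 * x (Sum.inl 1)))} :=
    SF_eq (X (Sum.inr 0))
      (C 1 + C 2 * X (Sum.inl 1) * ((X (Sum.inl 0) + C 1) + X (Sum.inr 1) * (C 2 * X (Sum.inl 1))))
      (fun x : Fin 2 ⊕ Fin 3 → ℕ => x (Sum.inr 0))
      (fun x : Fin 2 ⊕ Fin 3 → ℕ => 1 + 2 * x (Sum.inl 1) * ((x (Sum.inl 0) + 1) + x (Sum.inr 1) * (2 * x (Sum.inl 1))))
      (by intro a; simp) (by intro a; simp)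
  have c5 : SF f {x : Fin 2 ⊕ Fin 3 → ℕ | 2 * x (Sum.inl 1) = x (Sum.inl 0) + 2 + x (Sum.inr 2)} :=
    SF_eq (C 2 * X (Sum.inl 1)) (X (Sum.inl 0) + C 2 + X (Sum.inr 2))
      (fun x : Fin 2 ⊕ Fin 3 → ℕ => 2 * x (Sum.inl 1)) (fun x : Fin 2 ⊕ Fin 3 → ℕ => x (Sum.inl 0) + 2 + x (Sum.inr 2))
      (by intro a; simp) (by intro a; simp)
  have hS := SF_inter c1 (SF_inter c2 (SF_inter c3 (SF_inter c4 c5)))
  have hex := SF_ex hS (by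
    intro a v v' hv hv'
    obtain ⟨a1, a2, a3, a4, a5⟩ := hv
    obtain ⟨b1, b2, b3, b4, b5⟩ := hv'
    simp only [Set.mem_ofPred_eq, Sum.elim_inl, Sum.elim_inr, mem_powRel] at a1 a2 a3 a4 a5 b1 b2 b3 b4 b5
    obtain ⟨e1, e2⟩ := core1 a1 a2 a3 a4 a5
    obtain ⟨f1, f2⟩ := core1 b1 b2 b3 b4 b5
    have hy : 0 < a 1 := by rw [e1]; positivity
    have g0 : v 0 = v' 0 := by rw [e2, f2]
    have g2 : v 2 = v' 2 := by omega
    have g1 : v 1 = v' 1 := by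
      rw [g0, b4] at a4
      have h6 : 2 * a 1 * ((a 0 + 1) + v' 1 * (2 * a 1)) = 2 * a 1 * ((a 0 + 1) + v 1 * (2 * a 1)) := by
        omega
      have h7 := Nat.eq_of_mul_eq_mul_left (by omega) h6
      have h8 : v' 1 * (2 * a 1) = v 1 * (2 * a 1) := by omega
      exact (Nat.eq_of_mul_eq_mul_right (by omega) h8).symm
    funext j
    fin_cases j
    · exact g0
    · exact g1
    · exact g2)
  have hset : twoPow = {a : Fin 2 → ℕ | ∃ v : Fin 3 → ℕ, Sum.elim a v ∈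
      ({x : Fin 2 ⊕ Fin 3 → ℕ | (![2, x (Sum.inl 1)] : Fin 2 → ℕ) ∈ powRel} ∩
      ({x : Fin 2 ⊕ Fin 3 → ℕ | (![2 * x (Sum.inl 1) + 1, x (Sum.inr 0)] : Fin 2 → ℕ) ∈ powRel} ∩
      ({x : Fin 2 ⊕ Fin 3 → ℕ |
        (![2 * (2 * x (Sum.inl 1) + 1), 2 * x (Sum.inl 1) * x (Sum.inr 0)] : Fin 2 → ℕ) ∈ powRel} ∩
      ({x : Fin 2 ⊕ Fin 3 → ℕ | x (Sum.inr 0)
        = 1 + 2 * x (Sum.inl 1) * ((x (Sum.inl 0) + 1) + x (Sum.inr 1) * (2 * x (Sum.inl 1)))} ∩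
      {x : Fin 2 ⊕ Fin 3 → ℕ | 2 * x (Sum.inl 1) = x (Sum.inl 0) + 2 + x (Sum.inr 2)}))))} := by
    ext a
    constructor
    · intro ha
      have ha' : a 1 = 2 ^ a 0 := ha
      obtain ⟨k, s, hk, hs⟩ := core1_ex (a 0)
      refine ⟨![(2 * a 1 + 1) ^ (a 0 + 1), k, s], ?_, ?_, ?_, ?_, ?_⟩
      · simp only [Set.mem_ofPred_eq, Sum.elim_inl, mem_powRel]
        exact ⟨a 0, ha'⟩
      · simp only [Set.mem_ofPred_eq, Sum.elim_inl, Sum.elim_inr, mem_powRel]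
        exact ⟨a 0 + 1, rfl⟩
      · simp only [Set.mem_ofPred_eq, Sum.elim_inl, Sum.elim_inr, mem_powRel]
        refine ⟨a 0 + 1, ?_⟩
        show 2 * a 1 * (2 * a 1 + 1) ^ (a 0 + 1) = _
        rw [mul_pow, ha', pow_succ 2 (a 0)]
        ring
      · simp only [Set.mem_ofPred_eq, Sum.elim_inl, Sum.elim_inr]
        show (2 * a 1 + 1) ^ (a 0 + 1) = 1 + 2 * a 1 * ((a 0 + 1) + k * (2 * a 1))
        rw [ha']; exact hk
      · simp only [Set.mem_ofPred_eq, Sum.elim_inl, Sum.elim_inr]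
        show 2 * a 1 = a 0 + 2 + s
        rw [ha']; exact hs
    · rintro ⟨v, a1, a2, a3, a4, a5⟩
      simp only [Set.mem_ofPred_eq, Sum.elim_inl, Sum.elim_inr, mem_powRel] at a1 a2 a3 a4 a5
      exact (core1 a1 a2 a3 a4 a5).1
  rw [hset]
  exact hex

/-- Triples `(B, n, Z)` with `Z = (B + 1) ^ n`. -/
def succPow : Set (Fin 3 → ℕ) := {v | v 2 = (v 0 + 1) ^ v 1}

theorem mem_succPow (B n Z : ℕ) : (![B, n, Z] : Fin 3 → ℕ) ∈ succPow ↔ Z = (B + 1) ^ n := Iff.rfl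

theorem SF_succPow {f : Bool} (h : SF f powRel) : SF f succPow := by
  have h2 := SF_twoPow h
  have c1 : SF f {x : Fin 3 ⊕ Fin 2 → ℕ | (![x (Sum.inl 1), x (Sum.inr 0)] : Fin 2 → ℕ) ∈ twoPow} :=
    SF_subst h2 (fun x : Fin 3 ⊕ Fin 2 → ℕ => ![x (Sum.inl 1), x (Sum.inr 0)])
      ![X (Sum.inl 1), X (Sum.inr 0)] (by
      intro a j; fin_cases j <;> simp)
  have c2 : SF f {x : Fin 3 ⊕ Fin 2 → ℕ |
      (![2 * x (Sum.inl 0) + 3, x (Sum.inr 1)] : Fin 2 → ℕ) ∈ powRel} :=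
    SF_subst h (fun x : Fin 3 ⊕ Fin 2 → ℕ => ![2 * x (Sum.inl 0) + 3, x (Sum.inr 1)])
      ![C 2 * X (Sum.inl 0) + C 3, X (Sum.inr 1)] (by
      intro a j; fin_cases j <;> simp)
  have c3 : SF f {x : Fin 3 ⊕ Fin 2 → ℕ |
      (![2 * (2 * x (Sum.inl 0) + 3), x (Sum.inr 0) * x (Sum.inr 1)] : Fin 2 → ℕ) ∈ powRel} :=
    SF_subst h (fun x : Fin 3 ⊕ Fin 2 → ℕ =>
        ![2 * (2 * x (Sum.inl 0) + 3), x (Sum.inr 0) * x (Sum.inr 1)])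
      ![C 2 * (C 2 * X (Sum.inl 0) + C 3), X (Sum.inr 0) * X (Sum.inr 1)] (by
      intro a j; fin_cases j <;> simp)
  have c4 : SF f {x : Fin 3 ⊕ Fin 2 → ℕ |
      (![x (Sum.inl 0) + 1, x (Sum.inl 2)] : Fin 2 → ℕ) ∈ powRel} :=
    SF_subst h (fun x : Fin 3 ⊕ Fin 2 → ℕ => ![x (Sum.inl 0) + 1, x (Sum.inl 2)])
      ![X (Sum.inl 0) + C 1, X (Sum.inl 2)] (by
      intro a j; fin_cases j <;> simp)
  have c5 : SF f {x : Fin 3 ⊕ Fin 2 → ℕ |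
      (![(x (Sum.inl 0) + 1) * (2 * x (Sum.inl 0) + 3), x (Sum.inl 2) * x (Sum.inr 1)] :
        Fin 2 → ℕ) ∈ powRel} :=
    SF_subst h (fun x : Fin 3 ⊕ Fin 2 → ℕ =>
        ![(x (Sum.inl 0) + 1) * (2 * x (Sum.inl 0) + 3), x (Sum.inl 2) * x (Sum.inr 1)])
      ![(X (Sum.inl 0) + C 1) * (C 2 * X (Sum.inl 0) + C 3), X (Sum.inl 2) * X (Sum.inr 1)] (by
      intro a j; fin_cases j <;> simp)
  have hS := SF_inter c1 (SF_inter c2 (SF_inter c3 (SF_inter c4 c5)))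
  have hex := SF_ex hS (by
    intro a v v' hv hv'
    obtain ⟨a1, a2, a3, a4, a5⟩ := hv
    obtain ⟨b1, b2, b3, b4, b5⟩ := hv'
    simp only [Set.mem_ofPred_eq, Sum.elim_inl, Sum.elim_inr, mem_powRel, mem_twoPow]
      at a1 a2 a3 a4 a5 b1 b2 b3 b4 b5
    obtain ⟨e1, _⟩ := core2 a1 a2 a3 a4 a5
    obtain ⟨f1, _⟩ := core2 b1 b2 b3 b4 b5
    funext j
    fin_cases j
    · show v 0 = v' 0
      rw [a1, b1]
    · show v 1 = v' 1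
      rw [e1, f1])
  have hset : succPow = {a : Fin 3 → ℕ | ∃ v : Fin 2 → ℕ, Sum.elim a v ∈
      ({x : Fin 3 ⊕ Fin 2 → ℕ | (![x (Sum.inl 1), x (Sum.inr 0)] : Fin 2 → ℕ) ∈ twoPow} ∩
      ({x : Fin 3 ⊕ Fin 2 → ℕ | (![2 * x (Sum.inl 0) + 3, x (Sum.inr 1)] : Fin 2 → ℕ) ∈ powRel} ∩
      ({x : Fin 3 ⊕ Fin 2 → ℕ |
        (![2 * (2 * x (Sum.inl 0) + 3), x (Sum.inr 0) * x (Sum.inr 1)] : Fin 2 → ℕ) ∈ powRel} ∩
      ({x : Fin 3 ⊕ Fin 2 → ℕ | (![x (Sum.inl 0) + 1, x (Sum.inl 2)] : Fin 2 → ℕ) ∈ powRel} ∩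
      {x : Fin 3 ⊕ Fin 2 → ℕ |
        (![(x (Sum.inl 0) + 1) * (2 * x (Sum.inl 0) + 3), x (Sum.inl 2) * x (Sum.inr 1)] :
          Fin 2 → ℕ) ∈ powRel}))))} := by
    ext a
    constructor
    · intro ha
      have ha' : a 2 = (a 0 + 1) ^ a 1 := ha
      refine ⟨![2 ^ a 1, (2 * a 0 + 3) ^ a 1], ?_, ?_, ?_, ?_, ?_⟩
      · simp only [Set.mem_ofPred_eq, Sum.elim_inl, Sum.elim_inr, mem_twoPow]
        rfl
      · simp only [Set.mem_ofPred_eq, Sum.elim_inl, Sum.elim_inr, mem_powRel]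
        exact ⟨a 1, rfl⟩
      · simp only [Set.mem_ofPred_eq, Sum.elim_inl, Sum.elim_inr, mem_powRel]
        refine ⟨a 1, ?_⟩
        show 2 ^ a 1 * (2 * a 0 + 3) ^ a 1 = _
        rw [mul_pow]
      · simp only [Set.mem_ofPred_eq, Sum.elim_inl, mem_powRel]
        exact ⟨a 1, ha'⟩
      · simp only [Set.mem_ofPred_eq, Sum.elim_inl, Sum.elim_inr, mem_powRel]
        refine ⟨a 1, ?_⟩
        show a 2 * (2 * a 0 + 3) ^ a 1 = _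
        rw [mul_pow, ha']
    · rintro ⟨v, a1, a2, a3, a4, a5⟩
      simp only [Set.mem_ofPred_eq, Sum.elim_inl, Sum.elim_inr, mem_powRel, mem_twoPow]
        at a1 a2 a3 a4 a5
      exact (core2 a1 a2 a3 a4 a5).2
  rw [hset]
  exact hex

theorem SF_expRel {f : Bool} (h : SF f powRel) : SF f expRel := by
  have h3 := SF_succPow h
  have c1 : SF f {x : Fin 3 ⊕ Fin 4 → ℕ |
      (![x (Sum.inl 0) + 1, x (Sum.inl 1) + 1, x (Sum.inr 0)] : Fin 3 → ℕ) ∈ succPow} :=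
    SF_subst h3 (fun x : Fin 3 ⊕ Fin 4 → ℕ => ![x (Sum.inl 0) + 1, x (Sum.inl 1) + 1, x (Sum.inr 0)])
      ![X (Sum.inl 0) + C 1, X (Sum.inl 1) + C 1, X (Sum.inr 0)] (by
      intro a j; fin_cases j <;> simp)
  have c2 : SF f {x : Fin 3 ⊕ Fin 4 → ℕ |
      (![x (Sum.inr 0) + x (Sum.inl 0), x (Sum.inl 1), x (Sum.inr 1)] : Fin 3 → ℕ) ∈ succPow} :=
    SF_subst h3 (fun x : Fin 3 ⊕ Fin 4 → ℕ =>
        ![x (Sum.inr 0) + x (Sum.inl 0), x (Sum.inl 1), x (Sum.inr 1)])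
      ![X (Sum.inr 0) + X (Sum.inl 0), X (Sum.inl 1), X (Sum.inr 1)] (by
      intro a j; fin_cases j <;> simp)
  have c3 : SF f {x : Fin 3 ⊕ Fin 4 → ℕ |
      x (Sum.inr 1) = x (Sum.inr 2) * (x (Sum.inr 0) + 1) + x (Sum.inl 2)} :=
    SF_eq (X (Sum.inr 1)) (X (Sum.inr 2) * (X (Sum.inr 0) + C 1) + X (Sum.inl 2))
      (fun x : Fin 3 ⊕ Fin 4 → ℕ => x (Sum.inr 1))
      (fun x : Fin 3 ⊕ Fin 4 → ℕ => x (Sum.inr 2) * (x (Sum.inr 0) + 1) + x (Sum.inl 2))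
      (by intro a; simp) (by intro a; simp)
  have c4 : SF f {x : Fin 3 ⊕ Fin 4 → ℕ | x (Sum.inr 0) = x (Sum.inl 2) + x (Sum.inr 3)} :=
    SF_eq (X (Sum.inr 0)) (X (Sum.inl 2) + X (Sum.inr 3))
      (fun x : Fin 3 ⊕ Fin 4 → ℕ => x (Sum.inr 0))
      (fun x : Fin 3 ⊕ Fin 4 → ℕ => x (Sum.inl 2) + x (Sum.inr 3))
      (by intro a; simp) (by intro a; simp)
  have hS := SF_inter c1 (SF_inter c2 (SF_inter c3 c4))
  have hex := SF_ex hS (by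
    intro a v v' hv hv'
    obtain ⟨a1, a2, a3, a4⟩ := hv
    obtain ⟨b1, b2, b3, b4⟩ := hv'
    simp only [Set.mem_ofPred_eq, Sum.elim_inl, Sum.elim_inr, mem_succPow]
      at a1 a2 a3 a4 b1 b2 b3 b4
    have g0 : v 0 = v' 0 := by rw [a1, b1]
    have g1 : v 1 = v' 1 := by rw [a2, b2, g0]
    have g3 : v 3 = v' 3 := by omega
    have g2 : v 2 = v' 2 := by
      rw [g1, g0, b3] at a3
      have h8 : v' 2 * (v' 0 + 1) = v 2 * (v' 0 + 1) := by omega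
      exact (Nat.eq_of_mul_eq_mul_right (by omega) h8).symm
    funext j
    fin_cases j
    · exact g0
    · exact g1
    · exact g2
    · exact g3)
  have hset : expRel = {a : Fin 3 → ℕ | ∃ v : Fin 4 → ℕ, Sum.elim a v ∈
      ({x : Fin 3 ⊕ Fin 4 → ℕ |
        (![x (Sum.inl 0) + 1, x (Sum.inl 1) + 1, x (Sum.inr 0)] : Fin 3 → ℕ) ∈ succPow} ∩
      ({x : Fin 3 ⊕ Fin 4 → ℕ |
        (![x (Sum.inr 0) + x (Sum.inl 0), x (Sum.inl 1), x (Sum.inr 1)] : Fin 3 → ℕ) ∈ succPow} ∩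
      ({x : Fin 3 ⊕ Fin 4 → ℕ |
        x (Sum.inr 1) = x (Sum.inr 2) * (x (Sum.inr 0) + 1) + x (Sum.inl 2)} ∩
      {x : Fin 3 ⊕ Fin 4 → ℕ | x (Sum.inr 0) = x (Sum.inl 2) + x (Sum.inr 3)})))} := by
    ext a
    constructor
    · intro ha
      have ha' : a 2 = a 0 ^ a 1 := ha
      obtain ⟨q, s, hq, hs⟩ := core3_ex (a 0) (a 1)
      refine ⟨![(a 0 + 1 + 1) ^ (a 1 + 1), ((a 0 + 1 + 1) ^ (a 1 + 1) + a 0 + 1) ^ a 1, q, s],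
        ?_, ?_, ?_, ?_⟩
      · simp only [Set.mem_ofPred_eq, Sum.elim_inl, Sum.elim_inr, mem_succPow]
        rfl
      · simp only [Set.mem_ofPred_eq, Sum.elim_inl, Sum.elim_inr, mem_succPow]
        rfl
      · simp only [Set.mem_ofPred_eq, Sum.elim_inl, Sum.elim_inr]
        show ((a 0 + 1 + 1) ^ (a 1 + 1) + a 0 + 1) ^ a 1
          = q * ((a 0 + 1 + 1) ^ (a 1 + 1) + 1) + a 2
        rw [ha']; exact hq
      · simp only [Set.mem_ofPred_eq, Sum.elim_inl, Sum.elim_inr]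
        show (a 0 + 1 + 1) ^ (a 1 + 1) = a 2 + s
        rw [ha']; exact hs
    · rintro ⟨v, a1, a2, a3, a4⟩
      simp only [Set.mem_ofPred_eq, Sum.elim_inl, Sum.elim_inr, mem_succPow] at a1 a2 a3 a4
      exact core3 a1 a2 a3 a4
  rw [hset]
  exact hex

end Vale.Agent.P345
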