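import Vale.Agent.P345.Elim

namespace Vale.Agent.P345

open MvPolynomial

/-- Arithmetic core of the index recovery: `A = B + 2` is the base, `A * X + 1` the second base. -/
theorem coreA {A n X X' k s : ℕ} (hA : 2 ≤ A) (h1 : ∃ i, X = A ^ i)
    (h2 : ∃ j, X' = (A * X + 1) ^ j) (h3 : ∃ l, X * X' = (A * (A * X + 1)) ^ l)
    (h4 : X' = 1 + A * X * (n + k * (A * X))) (h5 : A * X = n + 1 + s) :
    X = A ^ n ∧ X' = (A * X + 1) ^ n := by
  obtain ⟨i, hi⟩ := h1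
  obtain ⟨j, hj⟩ := h2
  obtain ⟨l, hl⟩ := h3
  have hXpos : 0 < X := by rw [hi]; positivity
  have hAX : 0 < A * X := by positivity
  have e : A ^ i * (A * X + 1) ^ j = A ^ l * (A * X + 1) ^ l := by
    rw [← mul_pow, ← hl, hj, ← hi]
  have hc : Nat.Coprime A (A * X + 1) := by
    have : A * X + 1 = 1 + A * X := by ring
    rw [this]
    simp
  obtain ⟨e1, e2⟩ := coprime_pow_eq hA hc e
  have e3 : j = l := Nat.pow_right_injective (by omega : 2 ≤ A * X + 1) e2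
  have hX' : X' = (A * X + 1) ^ i := by rw [hj, e3, ← e1]
  obtain ⟨k', hk'⟩ := binom_two_terms (A * X) i
  have e4 : n + k * (A * X) = i + k' * (A * X) := by
    have h6 : 1 + A * X * (n + k * (A * X)) = 1 + A * X * (i + k' * (A * X)) := by
      rw [← h4, ← hk', hX']
    have h7 : A * X * (n + k * (A * X)) = A * X * (i + k' * (A * X)) := by omega
    exact Nat.eq_of_mul_eq_mul_left hAX h7
  have hi2 : i < A * X := by
    have a1 : i < 2 ^ i := Nat.lt_two_pow_self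
    have a2 : 2 ^ i ≤ A ^ i := Nat.pow_le_pow_left hA i
    have a3 : X ≤ A * X := Nat.le_mul_of_pos_left X (by omega)
    omega
  have hn2 : n < A * X := by omega
  have e5 : n = i := by
    have m1 : (n + k * (A * X)) % (A * X) = n := by
      rw [Nat.add_mul_mod_self_right, Nat.mod_eq_of_lt hn2]
    have m2 : (i + k' * (A * X)) % (A * X) = i := by
      rw [Nat.add_mul_mod_self_right, Nat.mod_eq_of_lt hi2]
    rw [← m1, ← m2, e4]
  subst e5
  exact ⟨hi, hX'⟩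

theorem coreA_ex (A n : ℕ) (hA : 2 ≤ A) : ∃ k s : ℕ,
    (A * A ^ n + 1) ^ n = 1 + A * A ^ n * (n + k * (A * A ^ n)) ∧ A * A ^ n = n + 1 + s := by
  obtain ⟨k, hk⟩ := binom_two_terms (A * A ^ n) n
  have a1 : n < 2 ^ n := Nat.lt_two_pow_self
  have a2 : 2 ^ n ≤ A ^ n := Nat.pow_le_pow_left hA n
  have a3 : A ^ n ≤ A * A ^ n := Nat.le_mul_of_pos_left _ (by omega)
  exact ⟨k, A * A ^ n - (n + 1), hk, by omega⟩

/-- Arithmetic core of the last layer. -/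
theorem coreB {b n c M Z q s : ℕ} (h1 : M = (b + n + 2) ^ (n + 1)) (h2 : Z = (M + b + 2) ^ n)
    (h3 : Z = q * (M + 2) + c) (h4 : M = c + s) : c = b ^ n := by
  have hb : b ^ n < M + 2 := by
    have a1 : b ^ n ≤ (b + n + 2) ^ n := Nat.pow_le_pow_left (by omega) n
    have a2 : (b + n + 2) ^ n ≤ (b + n + 2) ^ (n + 1) :=
      Nat.pow_le_pow_right (by omega) (by omega)
    omega
  have hm : (M + b + 2) ^ n % (M + 2) = b ^ n % (M + 2) := by
    have : M + b + 2 ≡ b [MOD (M + 2)] := by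
      have : M + b + 2 = b + (M + 2) := by ring
      rw [this]
      simp [Nat.ModEq]
    exact this.pow n
  have hc : c < M + 2 := by omega
  have : Z % (M + 2) = c := by
    rw [h3, Nat.mul_add_mod_of_lt hc]
  rw [← this, h2, hm, Nat.mod_eq_of_lt hb]

theorem coreB_ex (b n : ℕ) : ∃ q s : ℕ,
    ((b + n + 2) ^ (n + 1) + b + 2) ^ n = q * ((b + n + 2) ^ (n + 1) + 2) + b ^ n ∧
    (b + n + 2) ^ (n + 1) = b ^ n + s := by
  set M := (b + n + 2) ^ (n + 1) with hM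
  have hb : b ^ n ≤ M := by
    have a1 : b ^ n ≤ (b + n + 2) ^ n := Nat.pow_le_pow_left (by omega) n
    have a2 : (b + n + 2) ^ n ≤ (b + n + 2) ^ (n + 1) :=
      Nat.pow_le_pow_right (by omega) (by omega)
    omega
  have hm : (M + b + 2) ^ n % (M + 2) = b ^ n % (M + 2) := by
    have : M + b + 2 ≡ b [MOD (M + 2)] := by
      have : M + b + 2 = b + (M + 2) := by ring
      rw [this]
      simp [Nat.ModEq]
    exact this.pow n
  rw [Nat.mod_eq_of_lt (by omega : b ^ n < M + 2)] at hm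
  refine ⟨(M + b + 2) ^ n / (M + 2), M - b ^ n, ?_, by omega⟩
  have := Nat.div_add_mod ((M + b + 2) ^ n) (M + 2)
  rw [hm] at this
  rw [mul_comm] at this
  exact this.symm

theorem lt_big (b n : ℕ) : n < (b + n + 2) ^ (n + 1) + b + 2 := by
  have a1 : n + 1 < 2 ^ (n + 1) := Nat.lt_two_pow_self
  have a2 : 2 ^ (n + 1) ≤ (b + n + 2) ^ (n + 1) := Nat.pow_le_pow_left (by omega) _
  omega

/-- From a relation `J` between the bounded power relation and the power relation one gets a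
relation `E` between bounded exponentiation and exponentiation (bases `B + 2`). -/
theorem SF_mid {f : Bool} {J : Set (Fin 2 → ℕ)} (h : SF f J)
    (hlow : ∀ a k : ℕ, k < a → (![a, a ^ k] : Fin 2 → ℕ) ∈ J) (hup : J ⊆ powRel) :
    ∃ E : Set (Fin 3 → ℕ), SF f E ∧
      (∀ B n X : ℕ, (![B, n, X] : Fin 3 → ℕ) ∈ E → X = (B + 2) ^ n) ∧
      (∀ B n : ℕ, n < B + 2 → (![B, n, (B + 2) ^ n] : Fin 3 → ℕ) ∈ E) := by
  have c1 : SF f {x : Fin 3 ⊕ Fin 3 → ℕ |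
      (![x (Sum.inl 0) + 2, x (Sum.inl 2)] : Fin 2 → ℕ) ∈ J} :=
    SF_subst h (fun x : Fin 3 ⊕ Fin 3 → ℕ => ![x (Sum.inl 0) + 2, x (Sum.inl 2)])
      ![X (Sum.inl 0) + C 2, X (Sum.inl 2)] (by
      intro a j; fin_cases j <;> simp)
  have c2 : SF f {x : Fin 3 ⊕ Fin 3 → ℕ |
      (![(x (Sum.inl 0) + 2) * x (Sum.inl 2) + 1, x (Sum.inr 0)] : Fin 2 → ℕ) ∈ J} :=
    SF_subst h (fun x : Fin 3 ⊕ Fin 3 → ℕ =>
        ![(x (Sum.inl 0) + 2) * x (Sum.inl 2) + 1, x (Sum.inr 0)])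
      ![(X (Sum.inl 0) + C 2) * X (Sum.inl 2) + C 1, X (Sum.inr 0)] (by
      intro a j; fin_cases j <;> simp)
  have c3 : SF f {x : Fin 3 ⊕ Fin 3 → ℕ |
      (![(x (Sum.inl 0) + 2) * ((x (Sum.inl 0) + 2) * x (Sum.inl 2) + 1),
        x (Sum.inl 2) * x (Sum.inr 0)] : Fin 2 → ℕ) ∈ J} :=
    SF_subst h (fun x : Fin 3 ⊕ Fin 3 → ℕ =>
        ![(x (Sum.inl 0) + 2) * ((x (Sum.inl 0) + 2) * x (Sum.inl 2) + 1),
          x (Sum.inl 2) * x (Sum.inr 0)])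
      ![(X (Sum.inl 0) + C 2) * ((X (Sum.inl 0) + C 2) * X (Sum.inl 2) + C 1),
        X (Sum.inl 2) * X (Sum.inr 0)] (by
      intro a j; fin_cases j <;> simp)
  have c4 : SF f {x : Fin 3 ⊕ Fin 3 → ℕ | x (Sum.inr 0)
      = 1 + (x (Sum.inl 0) + 2) * x (Sum.inl 2)
        * (x (Sum.inl 1) + x (Sum.inr 1) * ((x (Sum.inl 0) + 2) * x (Sum.inl 2)))} :=
    SF_eq (X (Sum.inr 0))
      (C 1 + (X (Sum.inl 0) + C 2) * X (Sum.inl 2)
        * (X (Sum.inl 1) + X (Sum.inr 1) * ((X (Sum.inl 0) + C 2) * X (Sum.inl 2))))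
      (fun x : Fin 3 ⊕ Fin 3 → ℕ => x (Sum.inr 0))
      (fun x : Fin 3 ⊕ Fin 3 → ℕ => 1 + (x (Sum.inl 0) + 2) * x (Sum.inl 2)
        * (x (Sum.inl 1) + x (Sum.inr 1) * ((x (Sum.inl 0) + 2) * x (Sum.inl 2))))
      (by intro a; simp) (by intro a; simp)
  have c5 : SF f {x : Fin 3 ⊕ Fin 3 → ℕ |
      (x (Sum.inl 0) + 2) * x (Sum.inl 2) = x (Sum.inl 1) + 1 + x (Sum.inr 2)} :=
    SF_eq ((X (Sum.inl 0) + C 2) * X (Sum.inl 2)) (X (Sum.inl 1) + C 1 + X (Sum.inr 2))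
      (fun x : Fin 3 ⊕ Fin 3 → ℕ => (x (Sum.inl 0) + 2) * x (Sum.inl 2))
      (fun x : Fin 3 ⊕ Fin 3 → ℕ => x (Sum.inl 1) + 1 + x (Sum.inr 2))
      (by intro a; simp) (by intro a; simp)
  have hS := SF_inter c1 (SF_inter c2 (SF_inter c3 (SF_inter c4 c5)))
  have hex := SF_ex hS (by
    intro a v v' hv hv'
    obtain ⟨a1, a2, a3, a4, a5⟩ := hv
    obtain ⟨b1, b2, b3, b4, b5⟩ := hv'
    have a1 := hup a1
    have a2 := hup a2
    have a3 := hup a3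
    have b1 := hup b1
    have b2 := hup b2
    have b3 := hup b3
    simp only [Set.mem_ofPred_eq, Sum.elim_inl, Sum.elim_inr, mem_powRel]
      at a1 a2 a3 a4 a5 b1 b2 b3 b4 b5
    obtain ⟨e1, e2⟩ := coreA (by omega) a1 a2 a3 a4 a5
    obtain ⟨f1, f2⟩ := coreA (by omega) b1 b2 b3 b4 b5
    have hX : 0 < a 2 := by rw [e1]; positivity
    have hAX : 0 < (a 0 + 2) * a 2 := by positivity
    have g0 : v 0 = v' 0 := by rw [e2, f2]
    have g2 : v 2 = v' 2 := by omega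
    have g1 : v 1 = v' 1 := by
      rw [g0, b4] at a4
      have h6 : (a 0 + 2) * a 2 * (a 1 + v' 1 * ((a 0 + 2) * a 2))
          = (a 0 + 2) * a 2 * (a 1 + v 1 * ((a 0 + 2) * a 2)) := by omega
      have h7 := Nat.eq_of_mul_eq_mul_left hAX h6
      have h8 : v' 1 * ((a 0 + 2) * a 2) = v 1 * ((a 0 + 2) * a 2) := by omega
      exact (Nat.eq_of_mul_eq_mul_right hAX h8).symm
    funext j
    fin_cases j
    · exact g0
    · exact g1
    · exact g2)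
  refine ⟨_, hex, ?_, ?_⟩
  · rintro B n X ⟨v, a1, a2, a3, a4, a5⟩
    have a1 := hup a1
    have a2 := hup a2
    have a3 := hup a3
    simp only [Set.mem_ofPred_eq, Sum.elim_inl, Sum.elim_inr, mem_powRel] at a1 a2 a3 a4 a5
    exact (coreA (by omega) a1 a2 a3 a4 a5).1
  · intro B n hn
    obtain ⟨k, s, hk, hs⟩ := coreA_ex (B + 2) n (by omega)
    have hn1 : n < (B + 2) * (B + 2) ^ n + 1 := by omega
    have hn2 : n < (B + 2) * ((B + 2) * (B + 2) ^ n + 1) := by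
      have : (B + 2) * (B + 2) ^ n + 1 ≤ (B + 2) * ((B + 2) * (B + 2) ^ n + 1) :=
        Nat.le_mul_of_pos_left _ (by omega)
      omega
    refine ⟨![((B + 2) * (B + 2) ^ n + 1) ^ n, k, s], ?_, ?_, ?_, ?_, ?_⟩
    · exact hlow (B + 2) n hn
    · exact hlow ((B + 2) * (B + 2) ^ n + 1) n hn1
    · have := hlow ((B + 2) * ((B + 2) * (B + 2) ^ n + 1)) n hn2
      rw [mul_pow] at this
      exact this
    · exact hk
    · exact hs

/-- The sandwich criterion in internal form. -/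
theorem SF_expRel_of_sandwich {f : Bool} {J : Set (Fin 2 → ℕ)} (h : SF f J)
    (hlow : ∀ a k : ℕ, k < a → (![a, a ^ k] : Fin 2 → ℕ) ∈ J) (hup : J ⊆ powRel) :
    SF f expRel := by
  obtain ⟨E, hE, hsound, hcompl⟩ := SF_mid h hlow hup
  have c1 : SF f {x : Fin 3 ⊕ Fin 4 → ℕ |
      (![x (Sum.inl 0) + x (Sum.inl 1), x (Sum.inl 1) + 1, x (Sum.inr 0)] : Fin 3 → ℕ) ∈ E} :=
    SF_subst hE (fun x : Fin 3 ⊕ Fin 4 → ℕ =>
        ![x (Sum.inl 0) + x (Sum.inl 1), x (Sum.inl 1) + 1, x (Sum.inr 0)])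
      ![X (Sum.inl 0) + X (Sum.inl 1), X (Sum.inl 1) + C 1, X (Sum.inr 0)] (by
      intro a j; fin_cases j <;> simp)
  have c2 : SF f {x : Fin 3 ⊕ Fin 4 → ℕ |
      (![x (Sum.inr 0) + x (Sum.inl 0), x (Sum.inl 1), x (Sum.inr 1)] : Fin 3 → ℕ) ∈ E} :=
    SF_subst hE (fun x : Fin 3 ⊕ Fin 4 → ℕ =>
        ![x (Sum.inr 0) + x (Sum.inl 0), x (Sum.inl 1), x (Sum.inr 1)])
      ![X (Sum.inr 0) + X (Sum.inl 0), X (Sum.inl 1), X (Sum.inr 1)] (by
      intro a j; fin_cases j <;> simp)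
  have c3 : SF f {x : Fin 3 ⊕ Fin 4 → ℕ |
      x (Sum.inr 1) = x (Sum.inr 2) * (x (Sum.inr 0) + 2) + x (Sum.inl 2)} :=
    SF_eq (X (Sum.inr 1)) (X (Sum.inr 2) * (X (Sum.inr 0) + C 2) + X (Sum.inl 2))
      (fun x : Fin 3 ⊕ Fin 4 → ℕ => x (Sum.inr 1))
      (fun x : Fin 3 ⊕ Fin 4 → ℕ => x (Sum.inr 2) * (x (Sum.inr 0) + 2) + x (Sum.inl 2))
      (by intro a; simp) (by intro a; simp)
  have c4 : SF f {x : Fin 3 ⊕ Fin 4 → ℕ | x (Sum.inr 0) = x (Sum.inl 2) + x (Sum.inr 3)} :=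
    SF_eq (X (Sum.inr 0)) (X (Sum.inl 2) + X (Sum.inr 3))
      (fun x : Fin 3 ⊕ Fin 4 → ℕ => x (Sum.inr 0))
      (fun x : Fin 3 ⊕ Fin 4 → ℕ => x (Sum.inl 2) + x (Sum.inr 3))
      (by intro a; simp) (by intro a; simp)
  have hS := SF_inter c1 (SF_inter c2 (SF_inter c3 c4))
  have hex := SF_ex hS (by
    intro a v v' hv hv'
    obtain ⟨a1, a2, a3, a4⟩ := hv
    obtain ⟨b1, b2, b3, b4⟩ := hv'
    have a1 := hsound _ _ _ a1
    have a2 := hsound _ _ _ a2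
    have b1 := hsound _ _ _ b1
    have b2 := hsound _ _ _ b2
    simp only [Set.mem_ofPred_eq, Sum.elim_inl, Sum.elim_inr] at a1 a2 a3 a4 b1 b2 b3 b4
    have g0 : v 0 = v' 0 := by rw [a1, b1]
    have g1 : v 1 = v' 1 := by rw [a2, b2, g0]
    have g3 : v 3 = v' 3 := by omega
    have g2 : v 2 = v' 2 := by
      rw [g1, g0, b3] at a3
      have h8 : v' 2 * (v' 0 + 2) = v 2 * (v' 0 + 2) := by omega
      exact (Nat.eq_of_mul_eq_mul_right (by omega) h8).symm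
    funext j
    fin_cases j
    · exact g0
    · exact g1
    · exact g2
    · exact g3)
  refine cast ?_ hex
  congr 1
  ext a
  constructor
  · rintro ⟨v, a1, a2, a3, a4⟩
    have a1 := hsound _ _ _ a1
    have a2 := hsound _ _ _ a2
    simp only [Set.mem_ofPred_eq, Sum.elim_inl, Sum.elim_inr] at a1 a2 a3 a4
    exact coreB a1 a2 a3 a4
  · intro ha
    have ha' : a 2 = a 0 ^ a 1 := ha
    obtain ⟨q, s, hq, hs⟩ := coreB_ex (a 0) (a 1)
    refine ⟨![(a 0 + a 1 + 2) ^ (a 1 + 1), ((a 0 + a 1 + 2) ^ (a 1 + 1) + a 0 + 2) ^ a 1, q, s],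
      ?_, ?_, ?_, ?_⟩
    · exact hcompl (a 0 + a 1) (a 1 + 1) (by omega)
    · exact hcompl ((a 0 + a 1 + 2) ^ (a 1 + 1) + a 0) (a 1) (lt_big (a 0) (a 1))
    · show ((a 0 + a 1 + 2) ^ (a 1 + 1) + a 0 + 2) ^ a 1
        = q * ((a 0 + a 1 + 2) ^ (a 1 + 1) + 2) + a 2
      rw [ha']; exact hq
    · show (a 0 + a 1 + 2) ^ (a 1 + 1) = a 2 + s
      rw [ha']; exact hs

end Vale.Agent.P345
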